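import Vale.Agent.P038P.DefsC
import Vale.Agent.P038P.Main
import Vale.Agent.P038P.Two
import Vale.Agent.P038P.Tri

/-! P038: Seymour's second neighbourhood conjecture: products of oriented graphs, sparse
out-neighbourhoods, and the factor 5/6 for triangle-free out-neighbourhoods. -/

namespace Vale.Agent.Results.P038.Combined

open Vale.Agent.P038P

theorem N1_eq {V : Type} [Fintype V] [DecidableEq V] (D : V → V → Prop) (v : V) :
    Two.firstOut D v = N1 D v := by
  ext u
  rw [Two.mem_firstOut, mem_N1]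

theorem N2_eq {V : Type} [Fintype V] [DecidableEq V] (D : V → V → Prop) (v : V) :
    Two.secondOut D v = N2 D v := by
  ext u
  rw [Two.mem_secondOut, mem_N2]

theorem arcs_eq {V : Type} [Fintype V] [DecidableEq V] (D : V → V → Prop) (S : Finset V) :
    Two.arcsIn D S = arcsIn D S := by
  unfold Two.arcsIn arcsIn
  congr

/-- Special cases of Seymour's second neighbourhood conjecture. -/
theorem result :
    (∀ (V W : Type) [Fintype V] [Fintype W] [Nonempty V] [Nonempty W]
      (D : V → V → Prop) (E : W → W → Prop), Oriented D → Oriented E →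
      (Oriented (direct D E) ∧ HasSeymourVertex (direct D E)) ∧
      ((∃ u x, D u x) → (∃ v y, E v y) →
        Oriented (cartesian D E) ∧ HasSeymourVertex (cartesian D E)) ∧
      ((∀ u, ∃ x, D u x) → (∀ v, ∃ y, E v y) →
        Oriented (strong D E) ∧ HasSeymourVertex (strong D E))) ∧
    (∀ (V : Type) [Fintype V] [Nonempty V] (D : V → V → Prop), Oriented D →
      ((∀ v, (∀ x, (N1 D v).card ≤ (N1 D x).card) → arcsIn D (N1 D v) ≤ 2 * (N1 D v).card - 3) →
          HasSeymourVertex D) ∧
      ((∀ v, (∀ x, (N1 D v).card ≤ (N1 D x).card) → (N1 D v).card ≠ 4 ∧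
          ∀ x, D v x → innerDegree D v x ≤ 3) → HasSeymourVertex D) ∧
      ((∀ v, (∀ x, (N1 D v).card ≤ (N1 D x).card) → ∀ x, D v x → innerDegree D v x ≤ 2) →
          HasSeymourVertex D) ∧
      ((∀ v x y z, D v x → D v y → D v z → D x y → D y z → ¬ D x z ∧ ¬ D z x) →
          ∃ v, 5 * (N1 D v).card ≤ 6 * (N2 D v).card)) := by
  classical
  refine ⟨?_, ?_⟩
  · intro V W _ _ _ _ D E hD hE
    refine ⟨⟨⟨fun p h => hD.1 _ h.1, fun p q h h' => hD.2 _ _ h.1 h'.1⟩, direct_seymour hD hE⟩,
      fun aD aE => ⟨⟨?_, ?_⟩, cartesian_seymour hD hE aD aE⟩,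
      fun sD sE => ⟨⟨?_, ?_⟩, strong_seymour hD hE sD sE⟩⟩
    · rintro p (h | h)
      · exact hD.1 _ h.1
      · exact hE.1 _ h.2
    · rintro p q (⟨h1, h2⟩ | ⟨h1, h2⟩) (⟨h3, h4⟩ | ⟨h3, h4⟩)
      · exact hD.2 _ _ h1 h3
      · rw [h3] at h1
        exact hD.1 _ h1
      · rw [h1] at h3
        exact hD.1 _ h3
      · exact hE.2 _ _ h2 h4
    · rintro p ⟨h, _⟩
      exact h rfl
    · rintro p q ⟨h, h1, h2⟩ ⟨_, h3, h4⟩
      rcases h1 with h1 | h1
      · rcases h2 with h2 | h2
        · exact h (Prod.ext h1 h2)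
        · rcases h4 with h4 | h4
          · rw [h4] at h2
            exact hE.1 _ h2
          · exact hE.2 _ _ h2 h4
      · rcases h3 with h3 | h3
        · rw [h3] at h1
          exact hD.1 _ h1
        · exact hD.2 _ _ h1 h3
  · intro V _ _ D hD
    have hS := Two.two_thm D hD.2
    simp only [N1_eq, N2_eq, arcs_eq] at hS
    have hI : ∀ v x, innerDegree D v x =
        (Finset.univ.filter fun y => D v y ∧ (D x y ∨ D y x)).card := by
      intro v x
      unfold innerDegree
      congr
    refine ⟨hS.1, fun h => hS.2.1 fun v hv => ⟨(h v hv).1, fun x hx => ?_⟩,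
      fun h => hS.2.2 fun v hv x hx => ?_, fun h => ?_⟩
    · refine le_trans (le_of_eq ?_) ((h v hv).2 x hx)
      rw [hI]
    · refine le_trans (le_of_eq ?_) (h v hv x hx)
      rw [hI]
    · obtain ⟨v, hv⟩ := Tri.tri_thm V D hD.2 h
      refine ⟨v, ?_⟩
      have e1 : (N1 D v).card = (Finset.univ.filter fun u => D v u).card := by
        unfold N1
        congr
      have e2 : (N2 D v).card =
          (Finset.univ.filter fun w => w ≠ v ∧ ¬ D v w ∧ ∃ u, D v u ∧ D u w).card := by
        unfold N2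
        congr
      rw [e1, e2]
      exact hv

end Vale.Agent.Results.P038.Combined
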