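import Vale.Agent.P038P.Defs
import Vale.Agent.P038P.Main

/-! P038: Seymour's second neighbourhood conjecture for products of oriented graphs. -/

namespace Vale.Agent.Results.P038.Products

open Vale.Agent.P038P

/-- Every direct product of two oriented graphs, every Cartesian product of two oriented graphs
with at least one arc each, and every strong product of two oriented graphs without sinks has a
vertex as in Seymour's second neighbourhood conjecture. -/
theorem result {V W : Type*} [Fintype V] [Fintype W] [Nonempty V] [Nonempty W]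
    (D : V → V → Prop) (E : W → W → Prop) (hD : Oriented D) (hE : Oriented E) :
    (Oriented (direct D E) ∧ HasSeymourVertex (direct D E)) ∧
    ((∃ u x, D u x) → (∃ v y, E v y) →
      Oriented (cartesian D E) ∧ HasSeymourVertex (cartesian D E)) ∧
    ((∀ u, ∃ x, D u x) → (∀ v, ∃ y, E v y) →
      Oriented (strong D E) ∧ HasSeymourVertex (strong D E)) := by
  refine ⟨⟨⟨fun p h => hD.1 _ h.1, fun p q h h' => hD.2 _ _ h.1 h'.1⟩, direct_seymour hD hE⟩,
    fun aD aE => ⟨⟨?_, ?_⟩, cartesian_seymour hD hE aD aE⟩,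
    fun sD sE => ⟨⟨?_, ?_⟩, strong_seymour hD hE sD sE⟩⟩
  · rintro p (h | h)
    · exact hD.1 _ h.1
    · exact hE.1 _ h.2
  · rintro p q (⟨h1, h2⟩ | ⟨h1, h2⟩) (⟨h3, h4⟩ | ⟨h3, h4⟩)
    · exact hD.2 _ _ h1 h3
    · rw [h3] at h1
      exact hD.1 _ h1
    · rw [h1] at h3
      exact hD.1 _ h3
    · exact hE.2 _ _ h2 h4
  · rintro p ⟨h, _⟩
    exact h rfl
  · rintro p q ⟨h, h1, h2⟩ ⟨_, h3, h4⟩
    rcases h1 with h1 | h1
    · rcases h2 with h2 | h2
      · exact h (Prod.ext h1 h2)
      · rcases h4 with h4 | h4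
        · rw [h4] at h2
          exact hE.1 _ h2
        · exact hE.2 _ _ h2 h4
    · rcases h3 with h3 | h3
      · rw [h3] at h1
        exact hD.1 _ h1
      · exact hD.2 _ _ h1 h3

end Vale.Agent.Results.P038.Products
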