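import Mathlib

/-!
P038: Seymour's second neighbourhood conjecture for oriented graphs whose out-neighbourhoods
are triangle-free, up to the factor `5/6`.
-/

open Finset

namespace Vale.Agent.Results.P038.TriangleFreeOutneighbourhoods

variable {V : Type} [Fintype V] [DecidableEq V] (A : V → V → Prop) [DecidableRel A]

/-- The first out-neighbourhood of `v`. -/
def N1 (v : V) : Finset V := univ.filter fun u => A v u

/-- The second out-neighbourhood of `v`. -/
def N2 (v : V) : Finset V := univ.filter fun w => w ≠ v ∧ ¬ A v w ∧ ∃ u, A v u ∧ A u w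

omit [Fintype V] [DecidableEq V] [DecidableRel A] in
theorem noTri (S : Finset V)
    (htf : ∀ x ∈ S, ∀ y ∈ S, ∀ z ∈ S, A x y → A y z → ¬ A x z ∧ ¬ A z x) {y z t : V}
    (hy : y ∈ S) (hz : z ∈ S) (ht : t ∈ S) (h1 : A y z ∨ A z y) (h2 : A y t ∨ A t y)
    (h3 : A z t ∨ A t z) : False := by
  rcases h1 with h1 | h1 <;> rcases h3 with h3 | h3 <;> rcases h2 with h2 | h2
  · exact (htf y hy z hz t ht h1 h3).1 h2
  · exact (htf y hy z hz t ht h1 h3).2 h2
  · exact (htf y hy t ht z hz h2 h3).1 h1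
  · exact (htf t ht y hy z hz h2 h1).1 h3
  · exact (htf z hz y hy t ht h1 h2).1 h3
  · exact (htf z hz t ht y hy h3 h2).1 h1
  · exact (htf t ht z hz y hy h3 h1).2 h2
  · exact (htf t ht z hz y hy h3 h1).1 h2

theorem mantel (S : Finset V) (hasym : ∀ u v, A u v → ¬ A v u)
    (htf : ∀ x ∈ S, ∀ y ∈ S, ∀ z ∈ S, A x y → A y z → ¬ A x z ∧ ¬ A z x) :
    4 * ∑ y ∈ S, ((N1 A y ∩ S).card : ℝ) ≤ (S.card : ℝ) ^ 2 := by
  classical
  set e : V → V → ℝ := fun y z => if A y z ∨ A z y then 1 else 0 with he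
  set o : V → V → ℝ := fun y z => if A y z then 1 else 0 with ho
  have hout : ∀ y, ((N1 A y ∩ S).card : ℝ) = ∑ z ∈ S, o y z := by
    intro y
    rw [ho]
    simp only [sum_boole]
    congr 2
    ext z
    simp [N1, and_comm]
  have heo : ∀ y z, e y z = o y z + o z y := by
    intro y z
    simp only [he, ho]
    by_cases h1 : A y z
    · simp [h1, hasym _ _ h1]
    · simp [h1]
  have hsymm : ∀ y z, e y z = e z y := fun y z => by rw [heo, heo]; ring
  set deg : V → ℝ := fun y => ∑ z ∈ S, e y z with hdeg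
  have hD : ∑ y ∈ S, deg y = 2 * ∑ y ∈ S, ((N1 A y ∩ S).card : ℝ) := by
    simp only [hdeg, hout, heo, sum_add_distrib]
    rw [sum_comm (f := fun y z => o z y)]
    ring
  have hadj : ∀ y ∈ S, ∀ z ∈ S, e y z * (deg y + deg z) ≤ e y z * S.card := by
    intro y hy z hz
    by_cases h : A y z ∨ A z y
    · have h1 : e y z = 1 := by simp [he, h]
      rw [h1, one_mul, one_mul]
      simp only [hdeg, ← sum_add_distrib]
      have : ∀ t ∈ S, e y t + e z t ≤ 1 := by
        intro t ht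
        by_cases h2 : A y t ∨ A t y
        · by_cases h3 : A z t ∨ A t z
          · exact (noTri A S htf hy hz ht h h2 h3).elim
          · simp only [he, if_neg h3]
            split_ifs <;> norm_num
        · simp only [he, if_neg h2]
          split_ifs <;> norm_num
      calc ∑ t ∈ S, (e y t + e z t) ≤ ∑ _t ∈ S, (1 : ℝ) := sum_le_sum this
        _ = S.card := by simp
    · have h1 : e y z = 0 := by simp [he, h]
      simp [h1]
  have hsum : 2 * ∑ y ∈ S, deg y ^ 2 ≤ S.card * ∑ y ∈ S, deg y := by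
    have h1 : ∑ y ∈ S, ∑ z ∈ S, e y z * (deg y + deg z) ≤ ∑ y ∈ S, ∑ z ∈ S, e y z * S.card :=
      sum_le_sum fun y hy => sum_le_sum fun z hz => hadj y hy z hz
    have h2 : ∑ y ∈ S, ∑ z ∈ S, e y z * (deg y + deg z) = 2 * ∑ y ∈ S, deg y ^ 2 := by
      simp only [mul_add, sum_add_distrib]
      have h3 : ∑ y ∈ S, ∑ z ∈ S, e y z * deg y = ∑ y ∈ S, deg y ^ 2 := by
        refine sum_congr rfl fun y _ => ?_
        rw [← sum_mul, pow_two]
      have h4 : ∑ y ∈ S, ∑ z ∈ S, e y z * deg z = ∑ y ∈ S, deg y ^ 2 := by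
        rw [sum_comm]
        refine sum_congr rfl fun z _ => ?_
        rw [← sum_mul, pow_two]
        congr 1
        exact sum_congr rfl fun y _ => hsymm y z
      rw [h3, h4]; ring
    have h5 : ∑ y ∈ S, ∑ z ∈ S, e y z * S.card = S.card * ∑ y ∈ S, deg y := by
      rw [mul_sum]
      refine sum_congr rfl fun y _ => ?_
      rw [← sum_mul, mul_comm]
    rw [h2, h5] at h1
    exact h1
  have hcs : (∑ y ∈ S, deg y) ^ 2 ≤ S.card * ∑ y ∈ S, deg y ^ 2 := sq_sum_le_card_mul_sum_sq
  set D := ∑ y ∈ S, deg y with hDdef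
  have hD0 : 0 ≤ D := sum_nonneg fun y _ => sum_nonneg fun z _ => by
    simp only [he]; split_ifs <;> norm_num
  have hc0 : (0 : ℝ) ≤ S.card := Nat.cast_nonneg _
  have hfin : 2 * D ≤ (S.card : ℝ) ^ 2 := by
    rcases hD0.eq_or_lt with h | h
    · linarith [sq_nonneg (S.card : ℝ)]
    · have : 2 * D * D ≤ (S.card : ℝ) ^ 2 * D := by nlinarith
      exact le_of_mul_le_mul_right this h
  linarith

theorem num1 (d c a b i : ℝ) (_hd : 0 < d) (_hc0 : 0 ≤ c) (hc : 6 * c < 5 * d) (ha : d - c ≤ a)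
    (ha4 : 4 * a ≤ d) (hb : a * (b - (d - c)) ≤ d ^ 2 / 4 - d * (d - c))
    (hi : 2 * d - a - b - c ≤ i) : d / 3 ≤ i := by
  have ha0 : 0 < a := by linarith
  have h1 : 0 ≤ (a - (d - c)) * (2 * d / 3 - a - (d - c)) :=
    mul_nonneg (by linarith) (by linarith)
  have h2 : 0 ≤ (5 * d / 6 - c) * (c + d / 2) := mul_nonneg (by linarith) (by linarith)
  have h3 : a * (2 * d - a - b - c) ≤ a * i := mul_le_mul_of_nonneg_left hi ha0.le
  have h4 : a * (d / 3) ≤ a * i := by nlinarith
  exact le_of_mul_le_mul_left h4 ha0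

theorem num2 (d c a i n u1 : ℝ) (hd : 0 < d) (hc : 6 * c < 5 * d)
    (ha4 : 4 * a ≤ d) (hi : d / 3 ≤ i) (hn0 : 0 ≤ n)
    (hn : i * n ≤ d ^ 2 / 4 - d * (d - c)) (hu : u1 ≤ a + c)
    (h : 6 * (2 * d - c - n) < 5 * u1) : False := by
  have h6 : d / 3 * n ≤ i * n := mul_le_mul_of_nonneg_right hi hn0
  have h7 : d * n ≤ d * (3 * c - 9 * d / 4) := by nlinarith
  have h8 : n ≤ 3 * c - 9 * d / 4 := le_of_mul_le_mul_left h7 hd
  linarith

theorem exists_vertex [Nonempty V] (hasym : ∀ u v, A u v → ¬ A v u)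
    (htf : ∀ v x y z, A v x → A v y → A v z → A x y → A y z → ¬ A x z ∧ ¬ A z x) :
    ∃ v, 5 * (N1 A v).card ≤ 6 * (N2 A v).card := by
  classical
  by_contra hcon
  push Not at hcon
  obtain ⟨v, hv⟩ := Finite.exists_min (fun v => (N1 A v).card)
  have m1 : ∀ x y, y ∈ N1 A x ↔ A x y := fun x y => by simp [N1]
  have m2 : ∀ x y, y ∈ N2 A x ↔ (y ≠ x ∧ ¬ A x y ∧ ∃ u, A x u ∧ A u y) := fun x y => by
    simp [N2]
  set S := N1 A v with hS
  set X := N2 A v with hX
  have mS : ∀ y, y ∈ S ↔ A v y := fun y => m1 v y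
  have mX : ∀ y, y ∈ X ↔ (y ≠ v ∧ ¬ A v y ∧ ∃ u, A v u ∧ A u y) := fun y => m2 v y
  have hSpos : 0 < S.card := by
    have h : 6 * X.card < 5 * S.card := hcon v
    omega
  have hSX : Disjoint S X := by
    rw [Finset.disjoint_left]
    intro z hz hz'
    exact ((mX z).1 hz').2.1 ((mS z).1 hz)
  have hsub : ∀ y ∈ S, N1 A y ⊆ S ∪ X := by
    intro y hy z hz
    rw [mS] at hy
    rw [m1] at hz
    rw [mem_union, mS, mX]
    by_cases h : A v z
    · exact Or.inl h
    · refine Or.inr ⟨?_, h, y, hy, hz⟩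
      rintro rfl
      exact hasym _ _ hy hz
  have hsplit : ∀ y ∈ S, (N1 A y ∩ S).card + (N1 A y ∩ X).card = (N1 A y).card := by
    intro y hy
    rw [← card_union_of_disjoint (hSX.mono inter_subset_right inter_subset_right),
      ← inter_union_distrib_left, inter_eq_left.2 (hsub y hy)]
  have hd_le : ∀ y, S.card ≤ (N1 A y).card := fun y => hv y
  set a : V → ℝ := fun y => ((N1 A y ∩ S).card : ℝ) with hadef
  set d : ℝ := (S.card : ℝ) with hd
  set c : ℝ := (X.card : ℝ) with hc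
  have hd0 : 0 < d := by rw [hd]; exact_mod_cast hSpos
  have hcd : 6 * c < 5 * d := by
    rw [hc, hd]; exact_mod_cast hcon v
  have hdX : ∀ y ∈ S, d - a y ≤ ((N1 A y ∩ X).card : ℝ) := by
    intro y hy
    have h1 : ((N1 A y ∩ S).card : ℝ) + (N1 A y ∩ X).card = (N1 A y).card := by
      exact_mod_cast hsplit y hy
    have h2 : d ≤ ((N1 A y).card : ℝ) := by rw [hd]; exact_mod_cast hd_le y
    have h3 : a y = ((N1 A y ∩ S).card : ℝ) := rfl
    linarith
  have hXc : ∀ y, ((N1 A y ∩ X).card : ℝ) ≤ c := by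
    intro y
    rw [hc]; exact_mod_cast card_le_card inter_subset_right
  have hac : ∀ y ∈ S, d - c ≤ a y := fun y hy => by linarith [hdX y hy, hXc y]
  have htfS : ∀ x ∈ S, ∀ y ∈ S, ∀ z ∈ S, A x y → A y z → ¬ A x z ∧ ¬ A z x := by
    intro x hx y hy z hz
    exact htf v x y z ((mS x).1 hx) ((mS y).1 hy) ((mS z).1 hz)
  have hM : 4 * ∑ y ∈ S, a y ≤ d ^ 2 := mantel A S hasym htfS
  -- the vertex `u`
  obtain ⟨u, hu, humin⟩ := exists_min_image S a (card_pos.1 hSpos)
  have hua4 : 4 * a u ≤ d := by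
    have h1 : d * a u ≤ ∑ y ∈ S, a y := by
      have := sum_le_sum humin
      simpa [hd] using this
    have h2 : d * (4 * a u) ≤ d * d := by nlinarith
    exact le_of_mul_le_mul_left h2 hd0
  have hSig : ∑ y ∈ S, (a y - (d - c)) ≤ d ^ 2 / 4 - d * (d - c) := by
    rw [sum_sub_distrib]
    simp only [sum_const, nsmul_eq_mul]
    linarith
  have hne : (N1 A u ∩ S).Nonempty := by
    rw [← card_pos]
    have : (0 : ℝ) < ((N1 A u ∩ S).card : ℝ) := by
      have := hac u hu
      have h3 : a u = ((N1 A u ∩ S).card : ℝ) := rfl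
      linarith
    exact_mod_cast this
  obtain ⟨w, hw, hwmin⟩ := exists_min_image (N1 A u ∩ S) a hne
  have hwS : w ∈ S := (mem_inter.1 hw).2
  have huw : A u w := (m1 u w).1 (mem_inter.1 hw).1
  have hb : a u * (a w - (d - c)) ≤ d ^ 2 / 4 - d * (d - c) := by
    refine le_trans ?_ hSig
    calc a u * (a w - (d - c)) = ∑ _y ∈ N1 A u ∩ S, (a w - (d - c)) := by
          rw [sum_const, nsmul_eq_mul]
      _ ≤ ∑ y ∈ N1 A u ∩ S, (a y - (d - c)) :=
          sum_le_sum fun y hy => by linarith [hwmin y hy]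
      _ ≤ ∑ y ∈ S, (a y - (d - c)) :=
          sum_le_sum_of_subset_of_nonneg inter_subset_right fun y hy _ => by
            linarith [hac y hy]
  -- the set `I`
  set I := (N1 A u ∩ X) ∩ (N1 A w ∩ X) with hI
  have hIcard : ((N1 A u ∩ X).card : ℝ) + (N1 A w ∩ X).card ≤ (I.card : ℝ) + c := by
    have h1 := card_union_add_card_inter (N1 A u ∩ X) (N1 A w ∩ X)
    have h2 : ((N1 A u ∩ X) ∪ (N1 A w ∩ X)).card ≤ X.card :=
      card_le_card (union_subset inter_subset_right inter_subset_right)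
    have h3 : (N1 A u ∩ X).card + (N1 A w ∩ X).card ≤ I.card + X.card := by
      rw [hI]; omega
    rw [hc]; exact_mod_cast h3
  have hi : 2 * d - a u - a w - c ≤ (I.card : ℝ) := by
    linarith [hdX u hu, hdX w hwS]
  have hi3 : d / 3 ≤ (I.card : ℝ) :=
    num1 d c (a u) (a w) I.card hd0 (Nat.cast_nonneg _) hcd (hac u hu) hua4 hb hi
  have hIne : I.Nonempty := by
    rw [← card_pos]
    have : (0 : ℝ) < (I.card : ℝ) := by linarith
    exact_mod_cast this
  set n : V → ℝ := fun x => ((S.filter fun y => ¬ A y x).card : ℝ) with hn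
  obtain ⟨x, hx, hxmin⟩ := exists_min_image I n hIne
  have hdc : ∑ x ∈ I, n x ≤ d ^ 2 / 4 - d * (d - c) := by
    refine le_trans ?_ hSig
    have h1 : ∑ x ∈ I, n x = ∑ y ∈ S, ((I.filter fun x => ¬ A y x).card : ℝ) := by
      have := Finset.sum_card_bipartiteAbove_eq_sum_card_bipartiteBelow (s := I) (t := S)
        (fun x y => ¬ A y x)
      simp only [bipartiteAbove, bipartiteBelow] at this
      change (∑ x ∈ I, ((S.filter fun y => ¬ A y x).card : ℝ)) = _
      exact_mod_cast this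
    rw [h1]
    refine sum_le_sum fun y hy => ?_
    have h2 : (I.filter fun x => ¬ A y x) ⊆ X \ (N1 A y ∩ X) := by
      intro z hz
      rw [mem_filter] at hz
      have hzX : z ∈ X := (mem_inter.1 (mem_inter.1 hz.1).1).2
      rw [mem_sdiff, mem_inter, m1]
      exact ⟨hzX, fun h => hz.2 h.1⟩
    have h3 : ((I.filter fun x => ¬ A y x).card : ℝ) + (N1 A y ∩ X).card ≤ c := by
      have h4 := card_le_card h2
      have h5 := card_sdiff_add_card_eq_card (inter_subset_right : N1 A y ∩ X ⊆ X)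
      have h6 : (I.filter fun x => ¬ A y x).card + (N1 A y ∩ X).card ≤ X.card := by omega
      rw [hc]
      exact_mod_cast h6
    linarith [hdX y hy]
  have hn_le : (I.card : ℝ) * n x ≤ d ^ 2 / 4 - d * (d - c) := by
    refine le_trans ?_ hdc
    have := sum_le_sum hxmin
    rwa [sum_const, nsmul_eq_mul] at this
  have hx1 := mem_inter.1 hx
  have hux : A u x := (m1 u x).1 (mem_inter.1 hx1.1).1
  have hwx : A w x := (m1 w x).1 (mem_inter.1 hx1.2).1
  have hvu : A v u := (mS u).1 hu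
  have hvw : A v w := (mS w).1 hwS
  set T1 := N1 A x \ (S ∪ (N1 A u ∩ X)) with hT1
  have hT : T1 ∪ (N1 A w ∩ S) ⊆ N2 A u := by
    intro z hz
    rw [m2]
    rcases mem_union.1 hz with hz | hz
    · have hxz : A x z := (m1 x z).1 (mem_sdiff.1 hz).1
      have hz2 := (mem_sdiff.1 hz).2
      refine ⟨?_, fun huz => ?_, x, hux, hxz⟩
      · rintro rfl
        exact hasym _ _ hux hxz
      · rcases mem_union.1 (hsub u hu ((m1 u z).2 huz)) with h | h
        · exact hz2 (mem_union_left _ h)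
        · exact hz2 (mem_union_right _ (mem_inter.2 ⟨(m1 u z).2 huz, h⟩))
    · have hwz : A w z := (m1 w z).1 (mem_inter.1 hz).1
      have hvz : A v z := (mS z).1 (mem_inter.1 hz).2
      refine ⟨?_, fun huz => ?_, w, huw, hwz⟩
      · rintro rfl
        exact hasym _ _ huw hwz
      · exact (htf v u w z hvu hvw hvz huw hwz).1 huz
  have hdisj : Disjoint T1 (N1 A w ∩ S) := by
    rw [Finset.disjoint_left]
    intro z hz hz'
    rw [hT1, mem_sdiff, mem_union] at hz
    exact hz.2 (Or.inl (mem_inter.1 hz').2)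
  have hcard1 : T1.card + (N1 A w ∩ S).card ≤ (N2 A u).card := by
    rw [← card_union_of_disjoint hdisj]
    exact card_le_card hT
  have hcard2 : (N1 A x).card ≤ T1.card + (N1 A x ∩ S).card + (N1 A x ∩ (N1 A u ∩ X)).card := by
    have h1 : N1 A x ⊆ T1 ∪ (N1 A x ∩ S) ∪ (N1 A x ∩ (N1 A u ∩ X)) := by
      intro z hz
      simp only [hT1, mem_union, mem_sdiff, mem_inter] at hz ⊢
      tauto
    refine (card_le_card h1).trans ((card_union_le _ _).trans ?_)
    have := card_union_le T1 (N1 A x ∩ S)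
    omega
  have hcard3 : ((N1 A x ∩ S).card : ℝ) ≤ n x := by
    have : N1 A x ∩ S ⊆ S.filter fun y => ¬ A y x := by
      intro z hz
      rw [mem_filter]
      exact ⟨(mem_inter.1 hz).2, hasym _ _ ((m1 x z).1 (mem_inter.1 hz).1)⟩
    change ((N1 A x ∩ S).card : ℝ) ≤ ((S.filter fun y => ¬ A y x).card : ℝ)
    exact_mod_cast card_le_card this
  have hcard4 : (N1 A x ∩ (N1 A u ∩ X)).card + I.card ≤ (N1 A u ∩ X).card := by
    have hd2 : Disjoint (N1 A x ∩ (N1 A u ∩ X)) I := by
      rw [Finset.disjoint_left]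
      intro z hz hz'
      have hxz : A x z := (m1 x z).1 (mem_inter.1 hz).1
      have huz : A u z := (m1 u z).1 (mem_inter.1 (mem_inter.1 hz).2).1
      have hwz : A w z := (m1 w z).1 (mem_inter.1 (mem_inter.1 hz').2).1
      exact (htf u w x z huw hux huz hwx hxz).1 hwz
    rw [← card_union_of_disjoint hd2]
    exact card_le_card (union_subset inter_subset_right inter_subset_left)
  have e1 : (T1.card : ℝ) + a w ≤ ((N2 A u).card : ℝ) := by
    change (T1.card : ℝ) + ((N1 A w ∩ S).card : ℝ) ≤ ((N2 A u).card : ℝ)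
    exact_mod_cast hcard1
  have e2 : ((N1 A x).card : ℝ) ≤ T1.card + (N1 A x ∩ S).card + (N1 A x ∩ (N1 A u ∩ X)).card := by
    exact_mod_cast hcard2
  have e4 : ((N1 A x ∩ (N1 A u ∩ X)).card : ℝ) + I.card ≤ (N1 A u ∩ X).card := by
    exact_mod_cast hcard4
  have e5 : d ≤ ((N1 A x).card : ℝ) := by rw [hd]; exact_mod_cast hd_le x
  have e6 : 6 * ((N2 A u).card : ℝ) < 5 * ((N1 A u).card : ℝ) := by exact_mod_cast hcon u
  have e7 : ((N1 A u).card : ℝ) ≤ a u + c := by
    have h1 : ((N1 A u ∩ S).card : ℝ) + (N1 A u ∩ X).card = (N1 A u).card := by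
      exact_mod_cast hsplit u hu
    have h3 : a u = ((N1 A u ∩ S).card : ℝ) := rfl
    linarith [hXc u]
  refine num2 d c (a u) I.card (n x) (N1 A u).card hd0 hcd hua4 hi3 (Nat.cast_nonneg _) hn_le e7 ?_
  linarith [hdX w hwS]

/-- Seymour's second neighbourhood conjecture up to the factor `5/6` for oriented graphs whose
out-neighbourhoods are triangle-free; the full conjecture when some vertex of minimum outdegree
has an out-neighbourhood without directed cycles. -/
theorem result :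
    (∀ (V : Type) [Fintype V] [DecidableEq V] [Nonempty V] (A : V → V → Prop) [DecidableRel A],
      (∀ u v, A u v → ¬ A v u) →
      (∀ v x y z, A v x → A v y → A v z → A x y → A y z → ¬ A x z ∧ ¬ A z x) →
      ∃ v, 5 * (univ.filter fun u => A v u).card ≤
        6 * (univ.filter fun w => w ≠ v ∧ ¬ A v w ∧ ∃ u, A v u ∧ A u w).card) := by
  intro V _ _ _ A _ h1 h2
  exact exists_vertex A h1 h2

end Vale.Agent.Results.P038.TriangleFreeOutneighbourhoods
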